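import Vale.Agent.P129.H200.ZSeq
import Vale.Agent.P129.H630.B2

/-!
P129, part H: the basic facts about the norm in the form used in `AvgVec` and `LemT`.
-/

open Finset

namespace Vale.Agent.P129.H200

open H448

theorem nrm_nonneg (x : Vec) : 0 ≤ nrm x := B.nrm_nonneg x

theorem nrm_add_le (x y : Vec) : nrm (x + y) ≤ nrm x + nrm y := B.nrm_add_le x y

theorem nrm_smul (c : ℝ) (x : Vec) : nrm (c • x) = |c| * nrm x := B.nrm_smul c x

theorem nrm_eq_zero_iff {x : Vec} : nrm x = 0 ↔ x = 0 := B.nrm_eq_zero_iff x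

theorem abs_ap_le {φ : Fn} (h : φ ∈ K) (x : Vec) : |ap φ x| ≤ nrm x := B.abs_ap_le h x

theorem nrm_res_le {I : Set W} (hI : I.OrdConnected) (x : Vec) : nrm (res I x) ≤ nrm x :=
  B.nrm_res_le hI x

theorem sum_nrm_le {z : ℕ → Vec} (hs : ∀ i j, i < j → SLt (z i).support (z j).support) {a b : ℕ}
    (hab : a < b) : ∑ i ∈ Ico a b, nrm (z i) ≤ m (b - a) * nrm (∑ i ∈ Ico a b, z i) := by
  rcases Nat.lt_or_ge (b - a) 2 with h | h
  · have hb : b = a + 1 := by omega
    subst hb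
    rw [Nat.Ico_succ_singleton, sum_singleton, sum_singleton]
    exact le_mul_of_one_le_left (nrm_nonneg _) (B.one_le_m_cast _)
  · exact B.sum_nrm_le h (by rw [Nat.card_Ico]) (fun i _ j _ hij => hs i j hij)

theorem seg_mem_K {s : Seg} (h : s.Ok K) : s.fn ∈ K := B.fn_mem_K h

end Vale.Agent.P129.H200
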