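import Mathlib

/-!
P129, part H: counting lemma for two successive families.
-/

namespace Vale.Agent.P129.H200

open Finset

/-- If the nonzero entries of a `d × n` array form a chain (no entry strictly below and left of
another one) and all entries are at most `C`, then their sum is at most `(d + n) C`. -/
theorem sum_chain_le {d n : ℕ} {C : ℝ} (A : ℕ → ℕ → ℝ)
    (hC : ∀ j k, j < d → k < n → A j k ≤ C) (hC0 : 0 ≤ C)
    (hch : ∀ j k j' k', j < j' → k' < k → j' < d → k < n → A j k ≠ 0 → A j' k' ≠ 0 → False) :
    ∑ j ∈ range d, ∑ k ∈ range n, A j k ≤ ((d + n : ℕ) : ℝ) * C := by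
  classical
  rw [← Finset.sum_product']
  set S := (range d ×ˢ range n).filter fun p => A p.1 p.2 ≠ 0 with hS
  have h1 : ∑ p ∈ range d ×ˢ range n, A p.1 p.2 = ∑ p ∈ S, A p.1 p.2 := by
    rw [hS, Finset.sum_filter_ne_zero]
  rw [h1]
  have hcard : S.card ≤ d + n := by
    have hinj : Set.InjOn (fun p : ℕ × ℕ => p.1 + p.2) (S : Set (ℕ × ℕ)) := by
      rintro ⟨j, k⟩ h ⟨j', k'⟩ h' he
      simp only [hS, Finset.coe_filter, Finset.mem_product, Finset.mem_range, Set.mem_ofPred_eq]
        at h h' he
      rcases lt_trichotomy j j' with hlt | heq | hgt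
      · exact (hch j k j' k' hlt (by omega) h'.1.1 h.1.2 h.2 h'.2).elim
      · subst heq
        have : k = k' := by omega
        subst this; rfl
      · exact (hch j' k' j k hgt (by omega) h.1.1 h'.1.2 h'.2 h.2).elim
    calc S.card = (S.image fun p : ℕ × ℕ => p.1 + p.2).card := (Finset.card_image_of_injOn hinj).symm
      _ ≤ (range (d + n)).card := by
          apply Finset.card_le_card
          intro x hx
          simp only [hS, Finset.mem_image, Finset.mem_filter, Finset.mem_product,
            Finset.mem_range] at hx ⊢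
          obtain ⟨p, ⟨⟨h1, h2⟩, -⟩, rfl⟩ := hx
          omega
      _ = d + n := Finset.card_range _
  calc ∑ p ∈ S, A p.1 p.2 ≤ ∑ _p ∈ S, C := Finset.sum_le_sum fun p hp => by
        simp only [hS, Finset.mem_filter, Finset.mem_product, Finset.mem_range] at hp
        exact hC _ _ hp.1.1 hp.1.2
    _ = S.card * C := by rw [Finset.sum_const, nsmul_eq_mul]
    _ ≤ ((d + n : ℕ) : ℝ) * C := by
        apply mul_le_mul_of_nonneg_right _ hC0
        exact_mod_cast hcard

end Vale.Agent.P129.H200
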