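import Vale.Agent.P129.H200.Api
import Vale.Agent.P129.H200.Pairs

/-!
P129, part H: `ℓ₁`-averages in block sequences of finitely supported vectors.
-/

open Finset

namespace Vale.Agent.P129.H200

open H448

/-- **Existence of averages**, for an arbitrary nonnegative function of intervals. -/
theorem exists_average_fun (N : ℕ → ℕ → ℝ) (h0 : ∀ a b, 0 ≤ N a b) (h1 : ∀ k, N k (k + 1) ≤ 1)
    (m : ℕ → ℝ) {n k : ℕ} {K : ℕ}
    (hlow : (n ^ k : ℕ) ≤ m (n ^ k) * N K (K + n ^ k)) (hn : 1 ≤ n) {C : ℝ} (hC : 1 < C)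
    (hk : m (n ^ k) < C ^ k) :
    ∃ a L : ℕ, K ≤ a ∧ 1 ≤ L ∧ a + n * L ≤ K + n ^ k ∧ 0 < N a (a + n * L) ∧
      ∀ i < n, (n : ℝ) * N (a + i * L) (a + (i + 1) * L) ≤ C * N a (a + n * L) := by
  have hC0 : 0 < C := by linarith
  by_contra hcon
  push Not at hcon
  have key : ∀ j, j ≤ k → ∀ s, (s + 1) * n ^ j ≤ n ^ k →
      C ^ j * N (K + s * n ^ j) (K + (s + 1) * n ^ j) ≤ (n : ℝ) ^ j := by
    intro j
    induction j with
    | zero =>
      intro _ s _
      simp only [pow_zero, mul_one, one_mul]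
      rw [← add_assoc]
      exact h1 _
    | succ j ih =>
      intro hj s hs
      have e1 : s * n ^ (j + 1) = s * n * n ^ j := by ring
      have e2 : (s + 1) * n ^ (j + 1) = s * n * n ^ j + n * n ^ j := by ring
      have hs' : K + s * n * n ^ j + n * n ^ j ≤ K + n ^ k := by
        rw [e2] at hs; omega
      have hL : 1 ≤ n ^ j := Nat.one_le_pow _ _ hn
      rw [e1, e2, ← add_assoc]
      by_cases h0' : 0 < N (K + s * n * n ^ j) (K + s * n * n ^ j + n * n ^ j)
      · obtain ⟨i, hi, hlt⟩ := hcon (K + s * n * n ^ j) (n ^ j) (by omega) hL hs' h0'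
        have e3 : K + s * n * n ^ j + i * n ^ j = K + (s * n + i) * n ^ j := by ring
        have e4 : K + s * n * n ^ j + (i + 1) * n ^ j = K + (s * n + i + 1) * n ^ j := by ring
        rw [e3, e4] at hlt
        have hb : (s * n + i + 1) * n ^ j ≤ n ^ k := by
          refine le_trans ?_ hs
          have : (s + 1) * n ^ (j + 1) = (s * n + n) * n ^ j := by ring
          rw [this]
          exact Nat.mul_le_mul_right _ (by omega)
        have h1 := ih (by omega) (s * n + i) hb
        have hCj : 0 < C ^ j := pow_pos hC0 j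
        have hn0 : (0 : ℝ) ≤ n := Nat.cast_nonneg n
        calc C ^ (j + 1) * N (K + s * n * n ^ j) (K + s * n * n ^ j + n * n ^ j)
            = C ^ j * (C * N (K + s * n * n ^ j) (K + s * n * n ^ j + n * n ^ j)) := by
              ring
          _ ≤ C ^ j * ((n : ℝ) * N (K + (s * n + i) * n ^ j)
                (K + (s * n + i + 1) * n ^ j)) :=
              mul_le_mul_of_nonneg_left hlt.le hCj.le
          _ = (n : ℝ) * (C ^ j * N (K + (s * n + i) * n ^ j)
                (K + (s * n + i + 1) * n ^ j)) := by ring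
          _ ≤ (n : ℝ) * (n : ℝ) ^ j := mul_le_mul_of_nonneg_left h1 hn0
          _ = (n : ℝ) ^ (j + 1) := by ring
      · have h2 : N (K + s * n * n ^ j) (K + s * n * n ^ j + n * n ^ j) = 0 :=
          le_antisymm (not_lt.1 h0') (h0 _ _)
        rw [h2, mul_zero]
        positivity
  have h1 := key k le_rfl 0 (by simp)
  simp only [zero_mul, add_zero, zero_add, one_mul] at h1
  have hN : 1 ≤ n ^ k := Nat.one_le_pow _ _ hn
  have h3 : (0 : ℝ) < (n ^ k : ℕ) := by exact_mod_cast hN
  have h4 : 0 < N K (K + n ^ k) := by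
    by_contra h5
    have h6 : N K (K + n ^ k) = 0 := le_antisymm (not_lt.1 h5) (h0 _ _)
    rw [h6, mul_zero] at hlow
    linarith
  have h5 : C ^ k * N K (K + n ^ k) ≤ m (n ^ k) * N K (K + n ^ k) := by
    refine h1.trans ?_
    have : ((n ^ k : ℕ) : ℝ) = (n : ℝ) ^ k := by push_cast; ring
    rw [← this]
    exact hlow
  have h6 := le_of_mul_le_mul_right h5 h4
  linarith

theorem one_le_fw (n : ℕ) : 1 ≤ fw n := by unfold fw; omega

theorem m_pos (n : ℕ) : (0 : ℝ) < m n := by
  have : 0 < m n := by unfold m; have := one_le_fw n; omega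
  exact_mod_cast this

theorem fw_two_pow (q : ℕ) : fw (2 ^ q) = 1 + q := by
  unfold fw; rw [Nat.log_pow (by norm_num)]

theorem m_two_pow (q : ℕ) : m (2 ^ q) = 64 * (1 + q) := by
  unfold m; rw [fw_two_pow]

theorem growth {q : ℕ} (hq : 20 ≤ q) : 128 * (1 + q * q) < 2 ^ q := by
  induction q, hq using Nat.le_induction with
  | base => norm_num
  | succ q hq ih =>
    rw [pow_succ]
    nlinarith

theorem nrm_zero : nrm 0 = 0 := nrm_eq_zero_iff.2 rfl

theorem nrm_sum_le {ι : Type*} (s : Finset ι) (f : ι → Vec) :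
    nrm (∑ i ∈ s, f i) ≤ ∑ i ∈ s, nrm (f i) := by
  classical
  induction s using Finset.induction_on with
  | empty => simp [nrm_zero]
  | insert a s ha ih =>
    rw [sum_insert ha, sum_insert ha]
    exact (nrm_add_le _ _).trans (by gcongr)

theorem res_add {R : Type} [AddZeroClass R] (I : Set W) (x y : W →₀ R) :
    res I (x + y) = res I x + res I y := by
  classical
  unfold res; exact Finsupp.filter_add

theorem res_zero {R : Type} [Zero R] (I : Set W) : res I (0 : W →₀ R) = 0 := by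
  unfold res; rw [Finsupp.filter_zero]

theorem res_sum {ι : Type*} {R : Type} [AddCommMonoid R] (I : Set W) (s : Finset ι)
    (f : ι → W →₀ R) : res I (∑ i ∈ s, f i) = ∑ i ∈ s, res I (f i) := by
  classical
  induction s using Finset.induction_on with
  | empty => simp [res_zero]
  | insert a s ha ih => rw [sum_insert ha, sum_insert ha, res_add, ih]

theorem res_smul (I : Set W) (c : ℝ) (x : Vec) : res I (c • x) = c • res I x := by
  classical
  unfold res; exact Finsupp.filter_smul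

theorem support_sum_sub {ι : Type*} {s : Finset ι} {f : ι → Vec} {a : W}
    (ha : a ∈ (∑ i ∈ s, f i).support) : ∃ i ∈ s, a ∈ (f i).support := by
  classical
  by_contra hcon
  push Not at hcon
  rw [Finsupp.mem_support_iff] at ha
  apply ha
  rw [Finsupp.finsetSum_apply]
  exact sum_eq_zero fun i hi => Finsupp.notMem_support_iff.1 (hcon i hi)

theorem exists_mem_of_nrm_res_ne {I : Set W} {x : Vec} (h : nrm (res I x) ≠ 0) :
    ∃ α ∈ I, α ∈ x.support := by
  classical
  by_contra hcon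
  push Not at hcon
  apply h
  have : res I x = 0 := by
    unfold res
    rw [Finsupp.filter_eq_zero_iff]
    intro α hα
    exact Finsupp.notMem_support_iff.1 (hcon α hα)
  rw [this, nrm_zero]

theorem sum_Ico_split (z : ℕ → Vec) (K n L : ℕ) :
    ∑ l ∈ Ico K (K + n * L), z l =
      ∑ i ∈ range n, ∑ l ∈ Ico (K + i * L) (K + (i + 1) * L), z l := by
  induction n with
  | zero => simp
  | succ n ih =>
    rw [sum_range_succ, ← ih, sum_Ico_consecutive]
    · have : 0 ≤ n * L := Nat.zero_le _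
      omega
    · exact Nat.add_le_add_left (Nat.mul_le_mul_right _ (Nat.le_succ n)) _

/-- Existence of `ℓ₁^n`-averages, `n = 2 ^ q`, in a sequence of successive vectors with norms in
`[1, 2]`. -/
theorem exists_avg (z : ℕ → Vec) (hs : ∀ i j, i < j → SLt (z i).support (z j).support)
    (h1 : ∀ i, 1 ≤ nrm (z i)) (h2 : ∀ i, nrm (z i) ≤ 2) {q : ℕ} (hq : 20 ≤ q) (K0 : ℕ) :
    ∃ (a L : ℕ) (c : ℝ), K0 ≤ a ∧ 1 ≤ L ∧ a + 2 ^ q * L ≤ K0 + (2 ^ q) ^ q ∧ 0 < c ∧
      c * L ≤ 2 * m L ∧ nrm ((c / 2 ^ q) • ∑ i ∈ Ico a (a + 2 ^ q * L), z i) = 1 ∧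
      AvgBound (2 ^ (q - 1)) ((c / 2 ^ q) • ∑ i ∈ Ico a (a + 2 ^ q * L), z i) 3 := by
  have hlow : ∀ a N : ℕ, 1 ≤ N → (N : ℝ) ≤ m N * nrm (∑ i ∈ Ico a (a + N), z i) := by
    intro a N hN
    have h := sum_nrm_le hs (a := a) (b := a + N) (by omega)
    rw [Nat.add_sub_cancel_left] at h
    refine le_trans ?_ h
    calc (N : ℝ) = ∑ _i ∈ Ico a (a + N), (1 : ℝ) := by simp
      _ ≤ _ := sum_le_sum fun i _ => h1 i
  obtain ⟨a, L, ha, hL, hb, hpos, havg⟩ := exists_average_fun
    (fun a b => nrm (∑ i ∈ Ico a b, z i) / 2)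
    (fun a b => div_nonneg (nrm_nonneg _) (by norm_num))
    (fun k => by
      show nrm (∑ i ∈ Ico k (k + 1), z i) / 2 ≤ 1
      rw [Nat.Ico_succ_singleton, sum_singleton]
      have := h2 k; linarith)
    (fun N => 2 * (m N : ℝ)) (n := 2 ^ q) (k := q) (K := K0) (C := 2) (by
      have := hlow K0 ((2 ^ q) ^ q) (Nat.one_le_pow _ _ (Nat.one_le_two_pow))
      show (((2 ^ q) ^ q : ℕ) : ℝ) ≤ 2 * (m ((2 ^ q) ^ q) : ℝ) *
        (nrm (∑ i ∈ Ico K0 (K0 + (2 ^ q) ^ q), z i) / 2)
      linarith) Nat.one_le_two_pow (by norm_num) (by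
      show 2 * (m ((2 ^ q) ^ q) : ℝ) < 2 ^ q
      rw [← pow_mul, m_two_pow]
      have := growth hq
      have h3 : ((128 * (1 + q * q) : ℕ) : ℝ) < ((2 ^ q : ℕ) : ℝ) := by exact_mod_cast this
      push_cast at h3 ⊢
      linarith)
  set S := ∑ i ∈ Ico a (a + 2 ^ q * L), z i with hS
  have hSpos : 0 < nrm S := by
    have : (0 : ℝ) < nrm S / 2 := hpos
    linarith
  have hn0 : (0 : ℝ) < 2 ^ q := by positivity
  set c : ℝ := 2 ^ q / nrm S with hc
  have hcpos : 0 < c := by positivity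
  have hsub : ∀ i < 2 ^ q, nrm (c • ∑ l ∈ Ico (a + i * L) (a + (i + 1) * L), z l) ≤ 2 := by
    intro i hi
    have h3 := havg i hi
    rw [nrm_smul, abs_of_pos hcpos, hc, div_mul_eq_mul_div, div_le_iff₀ hSpos]
    push_cast at h3
    linarith
  have hx : (c / 2 ^ q) • S = (1 / 2 ^ q : ℝ) • ∑ i ∈ range (2 ^ q),
      c • ∑ l ∈ Ico (a + i * L) (a + (i + 1) * L), z l := by
    rw [hS, sum_Ico_split, ← smul_sum, smul_smul]
    congr 1
    field_simp
  refine ⟨a, L, c, ha, hL, hb, hcpos, ?_, ?_, ?_⟩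
  · have h3 := hsub 0 (by positivity)
    rw [nrm_smul, abs_of_pos hcpos] at h3
    simp only [zero_mul, add_zero, zero_add, one_mul] at h3
    have h4 := hlow a L hL
    have hm := m_pos L
    calc c * L ≤ c * (m L * nrm (∑ i ∈ Ico a (a + L), z i)) := by gcongr
      _ = m L * (c * nrm (∑ i ∈ Ico a (a + L), z i)) := by ring
      _ ≤ m L * 2 := by gcongr
      _ = 2 * m L := by ring
  · rw [← hS, nrm_smul, abs_of_pos (by positivity), hc]
    field_simp
  · intro d I hd hI hlt
    rw [← hS]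
    have hch := sum_chain_le (d := d) (n := 2 ^ q) (C := 2)
      (fun j k => nrm (res (I j) (c • ∑ l ∈ Ico (a + k * L) (a + (k + 1) * L), z l)))
      (fun j k hj hk => (nrm_res_le (hI j hj) _).trans (hsub k hk)) (by norm_num) (by
        intro j k j' k' hj hk hj' hk2 hA hA'
        obtain ⟨α, hα1, hα2⟩ := exists_mem_of_nrm_res_ne hA
        obtain ⟨β, hβ1, hβ2⟩ := exists_mem_of_nrm_res_ne hA'
        have h5 : α < β := hlt j j' hj hj' α hα1 β hβ1
        obtain ⟨u, hu, hu2⟩ := support_sum_sub (Finsupp.support_smul hα2)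
        obtain ⟨v, hv, hv2⟩ := support_sum_sub (Finsupp.support_smul hβ2)
        rw [mem_Ico] at hu hv
        have h6 : (k' + 1) * L ≤ k * L := Nat.mul_le_mul_right _ (by omega)
        have h7 : β < α := hs v u (by omega) β hv2 α hu2
        exact lt_asymm h5 h7)
    calc ∑ j ∈ range d, nrm (res (I j) ((c / 2 ^ q) • S))
        ≤ ∑ j ∈ range d, (1 / 2 ^ q : ℝ) * ∑ k ∈ range (2 ^ q),
            nrm (res (I j) (c • ∑ l ∈ Ico (a + k * L) (a + (k + 1) * L), z l)) := by
          refine sum_le_sum fun j _ => ?_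
          rw [hx, res_smul, nrm_smul, abs_of_pos (by positivity), res_sum]
          gcongr
          exact nrm_sum_le _ _
      _ = (1 / 2 ^ q : ℝ) * ∑ j ∈ range d, ∑ k ∈ range (2 ^ q),
            nrm (res (I j) (c • ∑ l ∈ Ico (a + k * L) (a + (k + 1) * L), z l)) := by
          rw [mul_sum]
      _ ≤ (1 / 2 ^ q : ℝ) * (((d + 2 ^ q : ℕ) : ℝ) * 2) := by gcongr
      _ ≤ (1 / 2 ^ q : ℝ) * ((3 / 2 * 2 ^ q) * 2) := by
          gcongr
          have h8 : 2 ^ (q - 1) * 2 = 2 ^ q := by
            rw [← pow_succ]; congr 1; omega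
          have h9 : (d : ℝ) * 2 ≤ 2 ^ q := by
            have : d * 2 ≤ 2 ^ q := by omega
            exact_mod_cast this
          push_cast
          linarith
      _ = 3 := by field_simp

end Vale.Agent.P129.H200
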