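import Vale.Agent.P129.H448.Defs

/-!
P129, part H: interface between the level `z` (H1), the hits lemma (G) and Lemma T (H2).
-/

open Finset Filter Topology

namespace Vale.Agent.P129.H200

open H448

/-- the part of a segment with weight indices in the window `(A, B]` -/
def win (s : Seg) (A B : ℕ) : Seg := { s with J := s.J ∩ Set.Ioc A B }

/-- `z` is a rapidly increasing sequence of differences of averages of the block sequence `h`
(cofinal in `l`); the window of `z k` is `(a k, b k]`. On `z k` the functionals of weight index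
`≤ a k` act like on an average, and those of index `> b k` are negligible. The window part of
every infinite special sequence tends to `0` along `z`. -/
structure ZSeq (l : W) (h z : ℕ → Vec) (a b : ℕ → ℕ) : Prop where
  mem : ∀ k, z k ∈ Submodule.span ℝ (h '' {j | k ≤ j})
  succ : ∀ i j, i < j → SLt (z i).support (z j).support
  lt : ∀ k, ∀ α ∈ (z k).support, α < l
  cof : ∀ α < l, ∃ k, ∀ β ∈ (z k).support, α < β
  one_le : ∀ k, 1 ≤ nrm (z k)
  le_two : ∀ k, nrm (z k) ≤ 2
  ab : ∀ k, a k < b k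
  ba : ∀ k, b k ≤ a (k + 1)
  avg : ∀ k, AvgBound (ell (a k)) (z k) 6
  high : ∀ k, l1 (z k) / m (ell (b k + 1)) ≤ (1 / 2 : ℝ) ^ (k + 5)
  coh : ∀ i k, i ≤ k → (z i).support ⊆ F (a (k + 1)) l
  null : ∀ Φ, IsInf Φ → Tendsto
    (fun k => ap (Seg.fn ⟨Φ, b k + 1, Set.Ioc (a k) (b k), Set.univ⟩) (z k)) atTop (𝓝 0)

/-- Output of the hits lemma (G): for every `ε > 0` there is a subsequence on which the window part
of every special segment is `≥ ε` at most 7 times. -/
def Hits (z : ℕ → Vec) (a b : ℕ → ℕ) : Prop :=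
  ∀ ε : ℝ, 0 < ε → ∃ ν : ℕ → ℕ, StrictMono ν ∧ ∀ s : Seg, s.Ok K → ∀ S : Finset ℕ,
    (∀ i ∈ S, ε ≤ |ap (win s (a (ν i)) (b (ν i))).fn (z (ν i))|) → S.card ≤ 7

end Vale.Agent.P129.H200
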