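import Vale.Agent.P129.H200.LemT
import Vale.Agent.P129.H487.Pair
import Vale.Agent.P129.H570.Hits

/-!
P129, part H: from the level `z` and the hits lemma to exact pairs.
-/

namespace Vale.Agent.P129.H200

open H448

theorem lemT {l : W} {h z : ℕ → Vec} {a b : ℕ → ℕ} (hz : ZSeq l h z a b) :
    H487.LemT h := fun _ hδ => lemmaT hz (H570.hits hz) hδ

/-- exact pairs from the level `z` -/
theorem pairSupply {l : W} {h z : ℕ → Vec} {a b : ℕ → ℕ} (hb : IsBlock l h)
    (hz : ZSeq l h z a b) : H50.PairSupply h 3072 := H487.pairSupply hb (lemT hz)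

end Vale.Agent.P129.H200
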