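import Vale.Agent.P129.H200.AvgVec
import Vale.Agent.P129.H487.Ap

/-!
P129, part H2: Lemma T. In every block sequence cofinal in a limit there are averages on which all
special segments with large weight indices are small.
-/

open Finset Filter Topology

namespace Vale.Agent.P129.H200

open H448

/-- restriction of a segment to a set of weight indices -/
def rs (s : Seg) (J : Set ℕ) : Seg := { s with J := s.J ∩ J }

theorem rs_ok {A : Set Fn} {s : Seg} (h : s.Ok A) {J : Set ℕ} (hJ : J.OrdConnected) :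
    (rs s J).Ok A := ⟨h.sp, h.hJ.inter hJ, h.hI⟩

theorem mem_idx_rs {s : Seg} {J : Set ℕ} {w : ℕ} (h : w ∈ (rs s J).idx) : w ∈ s.idx ∧ w ∈ J := by
  classical
  obtain ⟨k, hk, rfl⟩ := mem_image.1 h
  have h1 := H487.mem_nodes.1 hk
  exact ⟨mem_image.2 ⟨k, H487.mem_nodes.2 ⟨h1.1, h1.2.1⟩, rfl⟩, h1.2.2⟩

theorem ap_split (s : Seg) (v : ℕ) (x : Vec) :
    ap s.fn x = ap (rs s (Set.Iic v)).fn x + ap (rs s (Set.Ioi v)).fn x := by
  classical
  rw [H487.ap_fn, H487.ap_fn, H487.ap_fn]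
  have h1 : s.nodes = (rs s (Set.Iic v)).nodes ∪ (rs s (Set.Ioi v)).nodes := by
    ext k
    rw [mem_union, H487.mem_nodes, H487.mem_nodes, H487.mem_nodes]
    simp only [rs, Set.mem_inter_iff, Set.mem_Iic, Set.mem_Ioi]
    have := le_or_gt (s.Φ k).w v
    tauto
  have h2 : Disjoint (rs s (Set.Iic v)).nodes (rs s (Set.Ioi v)).nodes := by
    rw [Finset.disjoint_left]
    intro k h3 h4
    have h5 := (H487.mem_nodes.1 h3).2.2
    have h6 := (H487.mem_nodes.1 h4).2.2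
    simp only [rs, Set.mem_Iic, Set.mem_Ioi] at h5 h6
    omega
  rw [h1, sum_union h2]
  rfl

theorem avgBound_mono {n n' : ℕ} {x : Vec} {C : ℝ} (h : AvgBound n x C) (hn : n' ≤ n) :
    AvgBound n' x C := fun d I hd => h d I (hd.trans hn)

/-- a weighted functional on an average -/
theorem abs_wtd_le {n : ℕ} {x : Vec} {C : ℝ} (h : AvgBound n x C) {φ : Fn} (hφ : φ ∈ Wtd K n) :
    |ap φ x| ≤ C * (m n : ℝ)⁻¹ := by
  obtain ⟨d, ψ, hd, hψ, hs, rfl⟩ := hφ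
  have hm := m_pos n
  rw [H487.ap_smul_left, H487.ap_sum_left, abs_mul]
  push_cast
  rw [abs_of_pos (inv_pos.2 hm), mul_comm]
  refine mul_le_mul_of_nonneg_right ?_ (inv_pos.2 hm).le
  refine (abs_sum_le_sum_abs _ _).trans (le_trans (sum_le_sum fun i hi => ?_)
    (h d (fun i => ran (ψ i).support) hd (fun i _ => H487.ran_ordConnected _)
      fun i j hij hj => H487.ran_ilt (hs i j hij hj)))
  rw [H487.ap_res_ran]
  exact abs_ap_le (hψ i (mem_range.1 hi)) _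

theorem res_mem_K {I : Set W} (hI : I.OrdConnected) {φ : Fn} (h : φ ∈ K) : res I φ ∈ K := by
  obtain ⟨s, hs⟩ := Set.mem_iUnion.1 h
  exact Set.mem_iUnion.2 ⟨s, H487.res_mem_Kst hI s φ hs⟩

/-- a weighted functional on an arbitrary vector -/
theorem abs_wtd_le_l1 {n : ℕ} {x : Vec} {φ : Fn} (h : φ ∈ Wtd K n) :
    |ap φ x| ≤ l1 x * (m n : ℝ)⁻¹ := by
  rw [mul_comm]
  refine H487.abs_ap_le_of_apply (fun a => ?_) x
  have h1 := H487.abs_wtd_apply_le (fun ψ hψ => H487.abs_apply_le_K hψ) h a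
  have h2 : ((|φ a| : ℚ) : ℝ) ≤ (((m n : ℕ) : ℚ)⁻¹ : ℚ) := by exact_mod_cast h1
  rw [Rat.cast_abs] at h2
  simpa using h2

/-- A segment all of whose nodes are bounded by `C / m (ell w)`, with indices `≥ v`. -/
theorem abs_seg_le {s : Seg} (hs : s.Ok K) {x : Vec} {C : ℝ} (hC : 0 ≤ C) {v : ℕ}
    (hv : ∀ w ∈ s.idx, v ≤ w)
    (h : ∀ k ∈ s.nodes, |ap (res s.I (s.Φ k).φ) x| ≤ C * (m (ell (s.Φ k).w) : ℝ)⁻¹) :
    |ap s.fn x| ≤ 2 * C * (m (ell v) : ℝ)⁻¹ := by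
  classical
  rw [H487.ap_fn]
  refine (abs_sum_le_sum_abs _ _).trans ((sum_le_sum h).trans ?_)
  rw [← mul_sum]
  have h1 := H487.sum_inv_le' (M := fun w => ((m (ell w) : ℕ) : ℝ)) (fun w => m_pos _)
    H487.geo_ell s.nodes (fun k => (s.Φ k).w) (by
      intro k hk k' hk' he
      have h2 := H487.mem_nodes.1 (Finset.mem_coe.1 hk)
      have h3 := H487.mem_nodes.1 (Finset.mem_coe.1 hk')
      exact (hs.sp.cod.w_inj h2.1 h3.1 he)) v (fun k hk => hv _ (mem_image.2 ⟨k, hk, rfl⟩))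
  calc C * ∑ k ∈ s.nodes, (m (ell (s.Φ k).w) : ℝ)⁻¹ ≤ C * (2 * (m (ell v) : ℝ)⁻¹) :=
        mul_le_mul_of_nonneg_left h1 hC
    _ = _ := by ring

theorem node_wtd {s : Seg} (hs : s.Ok K) {k : ℕ} (hk : k ∈ s.nodes) :
    res s.I (s.Φ k).φ ∈ Wtd K (ell (s.Φ k).w) :=
  H487.wtd_res_aux (fun _ h => res_mem_K hs.hI h) (hs.sp.wtd k (H487.mem_nodes.1 hk).1)

/-- indices between `v` and `v'` on an average of length `≥ ell v'` -/
theorem abs_seg_avg_le {s : Seg} (hs : s.Ok K) {x : Vec} {C : ℝ} (hC : 0 ≤ C) {v v' : ℕ}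
    (hx : AvgBound (ell v') x C) (hv : ∀ w ∈ s.idx, v ≤ w) (hv' : ∀ w ∈ s.idx, w ≤ v') :
    |ap s.fn x| ≤ 2 * C * (m (ell v) : ℝ)⁻¹ := by
  classical
  refine abs_seg_le hs hC hv fun k hk => ?_
  have h1 : (s.Φ k).w ∈ s.idx := mem_image.2 ⟨k, hk, rfl⟩
  exact abs_wtd_le (avgBound_mono hx (H487.ell_strictMono.monotone (hv' _ h1))) (node_wtd hs hk)

/-- large indices -/
theorem abs_seg_l1_le {s : Seg} (hs : s.Ok K) {x : Vec} {v : ℕ} (hv : ∀ w ∈ s.idx, v ≤ w) :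
    |ap s.fn x| ≤ 2 * l1 x * (m (ell v) : ℝ)⁻¹ :=
  abs_seg_le hs (H487.l1_nonneg x) hv fun _ hk => abs_wtd_le_l1 (node_wtd hs hk)

/-- `64 (1 + q²) / 2^q → 0` -/
theorem tendsto_growth : Tendsto (fun q : ℕ => 64 * (1 + (q : ℝ) * q) / 2 ^ q) atTop (𝓝 0) := by
  have h1 := tendsto_pow_const_div_const_pow_of_one_lt 2 (r := (2 : ℝ)) (by norm_num)
  have h2 := tendsto_pow_const_div_const_pow_of_one_lt 0 (r := (2 : ℝ)) (by norm_num)
  have h3 := (h2.const_mul 64).add (h1.const_mul 64)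
  simp only [mul_zero, add_zero] at h3
  refine h3.congr fun q => ?_
  simp only [pow_zero]
  ring

theorem span_mono_tail {h : ℕ → Vec} {j k : ℕ} (hjk : k ≤ j) :
    Submodule.span ℝ (h '' {i | j ≤ i}) ≤ Submodule.span ℝ (h '' {i | k ≤ i}) :=
  Submodule.span_mono (Set.image_mono fun _ hi => le_trans hjk hi)

/-- The estimate on one member of the sequence `z`. -/
theorem ap_z_le {l : W} {h z : ℕ → Vec} {a b : ℕ → ℕ} (hz : ZSeq l h z a b) {s : Seg}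
    (hs : s.Ok K) {v i : ℕ} (hv : ∀ w ∈ s.idx, v < w) :
    |ap s.fn (z i)| ≤ 12 * (m (ell (v + 1)) : ℝ)⁻¹ + |ap (win s (a i) (b i)).fn (z i)| +
      (1 / 2) ^ (i + 4) := by
  have hlow : |ap (rs s (Set.Iic (a i))).fn (z i)| ≤ 2 * 6 * (m (ell (v + 1)) : ℝ)⁻¹ :=
    abs_seg_avg_le (rs_ok hs Set.ordConnected_Iic) (by norm_num) (hz.avg i)
      (fun w hw => hv w (mem_idx_rs hw).1) (fun w hw => (mem_idx_rs hw).2)
  have hhigh : |ap (rs (rs s (Set.Ioi (a i))) (Set.Ioi (b i))).fn (z i)| ≤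
      2 * l1 (z i) * (m (ell (b i + 1)) : ℝ)⁻¹ :=
    abs_seg_l1_le (rs_ok (rs_ok hs Set.ordConnected_Ioi) Set.ordConnected_Ioi)
      (fun w hw => (mem_idx_rs hw).2)
  have hwin : rs (rs s (Set.Ioi (a i))) (Set.Iic (b i)) = win s (a i) (b i) := by
    unfold rs win
    congr 1
    ext w
    simp only [Set.mem_inter_iff, Set.mem_Ioi, Set.mem_Iic, Set.mem_Ioc]
    tauto
  have h1 := hz.high i
  have h2 : 2 * l1 (z i) * (m (ell (b i + 1)) : ℝ)⁻¹ ≤ (1 / 2) ^ (i + 4) := by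
    have : (1 / 2 : ℝ) ^ (i + 4) = 2 * (1 / 2) ^ (i + 5) := by
      rw [pow_succ _ (i + 4)]; ring
    rw [this, mul_assoc, ← div_eq_mul_inv]
    exact mul_le_mul_of_nonneg_left h1 (by norm_num)
  rw [ap_split s (a i), ap_split (rs s (Set.Ioi (a i))) (b i), hwin]
  calc _ ≤ |ap (rs s (Set.Iic (a i))).fn (z i)| + (|ap (win s (a i) (b i)).fn (z i)| +
        |ap (rs (rs s (Set.Ioi (a i))) (Set.Ioi (b i))).fn (z i)|) :=
        (abs_add_le _ _).trans (add_le_add le_rfl (abs_add_le _ _))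
    _ ≤ _ := by linarith

/-- Sum of numbers in `[0, 2]` at most seven of which are `≥ ε`. -/
theorem sum_hits_le {I : Finset ℕ} {ε : ℝ} (f : ℕ → ℝ) (hε : 0 ≤ ε) (hf : ∀ i ∈ I, f i ≤ 2)
    (h : ∀ S : Finset ℕ, (∀ i ∈ S, ε ≤ f i) → S.card ≤ 7) :
    ∑ i ∈ I, f i ≤ 14 + I.card * ε := by
  classical
  rw [← sum_filter_add_sum_filter_not I (fun i => ε ≤ f i)]
  have h1 : ∑ i ∈ I.filter (fun i => ε ≤ f i), f i ≤ 14 := by
    calc _ ≤ ∑ i ∈ I.filter (fun i => ε ≤ f i), (2 : ℝ) :=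
          sum_le_sum fun i hi => hf i (mem_filter.1 hi).1
      _ = (I.filter (fun i => ε ≤ f i)).card * 2 := by rw [sum_const, nsmul_eq_mul]
      _ ≤ 7 * 2 := by
          have : ((I.filter (fun i => ε ≤ f i)).card : ℝ) ≤ 7 := by
            exact_mod_cast h _ fun i hi => (mem_filter.1 hi).2
          linarith
      _ = 14 := by norm_num
  have h2 : ∑ i ∈ I.filter (fun i => ¬ ε ≤ f i), f i ≤ I.card * ε := by
    calc _ ≤ ∑ i ∈ I.filter (fun i => ¬ ε ≤ f i), ε :=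
          sum_le_sum fun i hi => (not_le.1 (mem_filter.1 hi).2).le
      _ = (I.filter (fun i => ¬ ε ≤ f i)).card * ε := by rw [sum_const, nsmul_eq_mul]
      _ ≤ I.card * ε := by
          have : ((I.filter (fun i => ¬ ε ≤ f i)).card : ℝ) ≤ I.card := by
            exact_mod_cast card_filter_le _ _
          exact mul_le_mul_of_nonneg_right this hε
  linarith

/-- **Lemma T.** -/
theorem lemmaT {l : W} {h z : ℕ → Vec} {a b : ℕ → ℕ} (hz : ZSeq l h z a b) (hits : Hits z a b)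
    {δ : ℝ} (hδ : 0 < δ) : ∃ w0 : ℕ, ∀ q0 k0 : ℕ, ∃ x ∈ Submodule.span ℝ (h '' {k | k0 ≤ k}),
      nrm x = 1 ∧ AvgBound q0 x 3 ∧
        ∀ s : Seg, s.Ok K → (∀ w ∈ s.idx, w0 ≤ w) → |ap s.fn x| ≤ δ := by
  -- `w0`
  have hinv : Tendsto (fun w : ℕ => (m (ell w) : ℝ)⁻¹) atTop (𝓝 0) := by
    have h1 : ∀ w : ℕ, (w : ℝ) ≤ m (ell w) := by
      intro w
      induction w with
      | zero => exact_mod_cast Nat.zero_le _
      | succ w ih =>
        have h1 := H487.geo_ell w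
        have h2 : (64 : ℝ) ≤ m (ell w) := by exact_mod_cast H487.sixtyfour_le_m _
        push_cast
        linarith
    exact (tendsto_atTop_mono h1 tendsto_natCast_atTop_atTop).inv_tendsto_atTop
  obtain ⟨w0, hw0⟩ := (hinv.eventually_lt_const (show (0 : ℝ) < δ / 24 by positivity)).exists
  refine ⟨w0, fun q0 k0 => ?_⟩
  -- the level `v = v' + 1`, `Q = 1 + ell v'`
  obtain ⟨Q1, hQ1⟩ := eventually_atTop.1
    (tendsto_growth.eventually_lt_const (show (0 : ℝ) < δ / 256 by positivity))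
  set v' := w0 + q0 + Q1 with hv'
  set Q := 1 + ell v' with hQ
  have hvl := H487.lt_ell v'
  have hQlow : Q1 ≤ Q := by omega
  have hgr := hQ1 Q hQlow
  have hellv : ell (v' + 1) = 2 ^ (Q - 1) := by
    rw [H487.ell_succ, hQ, Nat.add_sub_cancel_left]
  set T : ℝ := 64 * (1 + (Q : ℝ) * Q) with hT
  have hTpos : 0 < T := by positivity
  set ε : ℝ := δ / (8 * T) with hε
  have hεpos : 0 < ε := by positivity
  obtain ⟨ν, hν, hhit⟩ := hits ε hεpos
  -- the tail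
  have ha : ∀ i, i ≤ a i := by
    intro i
    induction i with
    | zero => exact Nat.zero_le _
    | succ i ih => have := hz.ab i; have := hz.ba i; omega
  set K0 := v' + 2 + k0 with hK0
  obtain ⟨a', L, c, h1, h2, h3, h4, h5, h6, h7⟩ := exists_avg (fun i => z (ν i))
    (fun i j hij => hz.succ _ _ (hν hij)) (fun i => hz.one_le _) (fun i => hz.le_two _)
    (q := Q) (by have := H487.thousand_le_ell v'; omega) K0
  refine ⟨_, ?_, h6, avgBound_mono h7 ?_, ?_⟩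
  · refine Submodule.smul_mem _ _ (Submodule.sum_mem _ fun i hi => ?_)
    refine span_mono_tail ?_ (hz.mem (ν i))
    have := hν.id_le i
    have := (mem_Ico.1 hi).1
    simp only [id] at *
    omega
  · rw [← hellv]
    have := H487.ell_lt_succ v'
    omega
  intro s hs hidx
  rw [ap_split s (v' + 1)]
  -- small indices
  have e1 : |ap (rs s (Set.Iic (v' + 1))).fn
      ((c / 2 ^ Q) • ∑ i ∈ Ico a' (a' + 2 ^ Q * L), z (ν i))| ≤ δ / 4 := by
    refine (abs_seg_avg_le (C := 3) (rs_ok hs Set.ordConnected_Iic) (by norm_num)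
      (v := w0) (v' := v' + 1) (by rw [hellv]; exact h7) (fun w hw => hidx w (mem_idx_rs hw).1)
      (fun w hw => (mem_idx_rs hw).2)).trans ?_
    have := hw0.le
    linarith
  -- large indices
  set s2 := rs s (Set.Ioi (v' + 1)) with hs2
  have hs2ok : s2.Ok K := rs_ok hs Set.ordConnected_Ioi
  have hn0 : (0 : ℝ) < 2 ^ Q := by positivity
  have hL0 : (1 : ℝ) ≤ L := by exact_mod_cast h2
  have e2 : |ap s2.fn ((c / 2 ^ Q) • ∑ i ∈ Ico a' (a' + 2 ^ Q * L), z (ν i))| ≤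
      (c / 2 ^ Q) * ∑ i ∈ Ico a' (a' + 2 ^ Q * L), |ap s2.fn (z (ν i))| := by
    have : ap s2.fn ((c / 2 ^ Q) • ∑ i ∈ Ico a' (a' + 2 ^ Q * L), z (ν i)) =
        (c / 2 ^ Q) * ∑ i ∈ Ico a' (a' + 2 ^ Q * L), ap s2.fn (z (ν i)) := by
      unfold ap
      rw [map_smul, map_sum, smul_eq_mul]
    rw [this, abs_mul, abs_of_pos (by positivity)]
    exact mul_le_mul_of_nonneg_left (abs_sum_le_sum_abs _ _) (by positivity)
  have hcard : (Ico a' (a' + 2 ^ Q * L)).card = 2 ^ Q * L := by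
    rw [Nat.card_Ico, Nat.add_sub_cancel_left]
  have e3 : ∑ i ∈ Ico a' (a' + 2 ^ Q * L), |ap s2.fn (z (ν i))| ≤
      (2 ^ Q * L : ℝ) * (12 * (m (ell (v' + 2)) : ℝ)⁻¹) + (14 + (2 ^ Q * L : ℝ) * ε) + 1 := by
    have f1 : ∀ i ∈ Ico a' (a' + 2 ^ Q * L), |ap s2.fn (z (ν i))| ≤
        12 * (m (ell (v' + 2)) : ℝ)⁻¹ + |ap (win s2 (a (ν i)) (b (ν i))).fn (z (ν i))| +
          (1 / 2) ^ (i + 4) := by
      intro i _
      refine (ap_z_le hz hs2ok (v := v' + 1) (fun w hw => (mem_idx_rs hw).2)).trans ?_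
      have h8 : i ≤ ν i := hν.id_le i
      have : (1 / 2 : ℝ) ^ (ν i + 4) ≤ (1 / 2) ^ (i + 4) :=
        pow_le_pow_of_le_one (by norm_num) (by norm_num) (by omega)
      linarith
    refine (sum_le_sum f1).trans ?_
    rw [sum_add_distrib, sum_add_distrib, sum_const, hcard, nsmul_eq_mul]
    have f2 := sum_hits_le (I := Ico a' (a' + 2 ^ Q * L))
      (fun i => |ap (win s2 (a (ν i)) (b (ν i))).fn (z (ν i))|) hεpos.le
      (fun i _ => (abs_ap_le (seg_mem_K (rs_ok hs2ok Set.ordConnected_Ioc)) _).trans (hz.le_two _))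
      (fun S hS => hhit s2 hs2ok S hS)
    rw [hcard] at f2
    have f3 : ∑ i ∈ Ico a' (a' + 2 ^ Q * L), (1 / 2 : ℝ) ^ (i + 4) ≤ 1 := by
      have g1 := (summable_geometric_two).sum_le_tsum (Ico a' (a' + 2 ^ Q * L))
        (fun _ _ => by positivity)
      rw [tsum_geometric_two] at g1
      have g2 : ∑ i ∈ Ico a' (a' + 2 ^ Q * L), (1 / 2 : ℝ) ^ (i + 4) =
          (1 / 16) * ∑ i ∈ Ico a' (a' + 2 ^ Q * L), (1 / 2 : ℝ) ^ i := by
        rw [mul_sum]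
        refine sum_congr rfl fun i _ => ?_
        rw [pow_add]; norm_num; ring
      rw [g2]; linarith
    push_cast at f2 ⊢
    linarith
  -- the constants
  have hLle : L ≤ (2 ^ Q) ^ Q := by
    have : L ≤ 2 ^ Q * L := Nat.le_mul_of_pos_left _ (by positivity)
    omega
  have hmL : (m L : ℝ) ≤ T := by
    have g1 : m L ≤ m ((2 ^ Q) ^ Q) := H487.m_mono hLle
    rw [← pow_mul, m_two_pow] at g1
    have : (m L : ℝ) ≤ ((64 * (1 + Q * Q) : ℕ) : ℝ) := by exact_mod_cast g1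
    rw [hT]; push_cast at this; exact this
  have hcL : c * L ≤ 2 * T := by linarith
  have hc : c ≤ 2 * T := by nlinarith
  have hm2 : (m (ell (v' + 2)) : ℝ)⁻¹ ≤ 1 / (32 * 2 ^ Q) := by
    have g1 : ((64 * (1 + ell (v' + 1)) : ℕ) : ℝ) = m (ell (v' + 2)) := by
      rw [H487.ell_succ (v' + 1), m_two_pow]
    rw [← g1, hellv, one_div]
    refine inv_anti₀ (by positivity) ?_
    have g2 : (2 : ℝ) ^ Q = 2 * 2 ^ (Q - 1) := by
      rw [← pow_succ']; congr 1; omega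
    push_cast
    rw [g2]
    linarith
  have e4 : (c / 2 ^ Q) * ((2 ^ Q * L : ℝ) * (12 * (m (ell (v' + 2)) : ℝ)⁻¹) +
      (14 + (2 ^ Q * L : ℝ) * ε) + 1) ≤ 31 * (T / 2 ^ Q) + 2 * T * ε := by
    have g0 : (c / 2 ^ Q) * ((2 ^ Q * L : ℝ) * (12 * (m (ell (v' + 2)) : ℝ)⁻¹) +
      (14 + (2 ^ Q * L : ℝ) * ε) + 1) = c * L * (12 * (m (ell (v' + 2)) : ℝ)⁻¹) +
        15 * (c / 2 ^ Q) + c * L * ε := by
      field_simp
      ring
    rw [g0]
    have g1 : c * L * (12 * (m (ell (v' + 2)) : ℝ)⁻¹) ≤ 2 * T * (12 * (1 / (32 * 2 ^ Q))) := by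
      gcongr
    have g2 : 15 * (c / 2 ^ Q) ≤ 15 * (2 * T / 2 ^ Q) := by gcongr
    have g3 : c * L * ε ≤ 2 * T * ε := by gcongr
    have g4 : 2 * T * (12 * (1 / (32 * 2 ^ Q))) = (3 / 4) * (T / 2 ^ Q) := by
      field_simp; ring
    have g5 : 15 * (2 * T / 2 ^ Q) = 30 * (T / 2 ^ Q) := by ring
    have g6 : 0 < T / 2 ^ Q := by positivity
    linarith
  have e5 : 2 * T * ε = δ / 4 := by
    rw [hε]; field_simp; ring
  have e6 : 31 * (T / 2 ^ Q) ≤ δ / 4 := by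
    have := hgr.le
    linarith
  calc |ap (rs s (Set.Iic (v' + 1))).fn
        ((c / 2 ^ Q) • ∑ i ∈ Ico a' (a' + 2 ^ Q * L), z (ν i)) +
        ap s2.fn ((c / 2 ^ Q) • ∑ i ∈ Ico a' (a' + 2 ^ Q * L), z (ν i))|
      ≤ δ / 4 + (c / 2 ^ Q) * ∑ i ∈ Ico a' (a' + 2 ^ Q * L), |ap s2.fn (z (ν i))| :=
        (abs_add_le _ _).trans (add_le_add e1 e2)
    _ ≤ δ / 4 + (c / 2 ^ Q) * ((2 ^ Q * L : ℝ) * (12 * (m (ell (v' + 2)) : ℝ)⁻¹) +
      (14 + (2 ^ Q * L : ℝ) * ε) + 1) := by gcongr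
    _ ≤ δ := by linarith

end Vale.Agent.P129.H200
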